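import Mathlib
import Vale.Agent.P162.Main

namespace Vale.Agent.Results.P162.ThorpDSquared

/-- One Thorp shuffle of a deck of `n = 2k` cards with coin flips `ω`, as a map of positions
(positions numbered `0, …, 2k-1`): for each `i < k` the cards in positions `i` (top half) and
`k + i` (bottom half) go to the positions `2i` and `2i + 1`; the coin `ω i` decides the order. -/
def shufflePos (k : ℕ) (ω : Fin k → Bool) (x : Fin (2 * k)) : Fin (2 * k) :=
  if h : x.1 < k then
    ⟨2 * x.1 + (if ω ⟨x.1, h⟩ then 1 else 0), by split <;> omega⟩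
  else
    ⟨2 * (x.1 - k) + (if ω ⟨x.1 - k, by omega⟩ then 0 else 1), by split <;> omega⟩

/-- The law `q_n`, `n = 2k`, of the permutation of positions made by one Thorp shuffle
(`k` independent fair coins): the fraction of coin outcomes `ω` that give the permutation `g`. -/
noncomputable def shuffleLaw (k : ℕ) (g : Equiv.Perm (Fin (2 * k))) : ℝ :=
  ((Finset.univ.filter fun ω : Fin k → Bool => ∀ x, g x = shufflePos k ω x).card : ℝ) / 2 ^ k

/-- `t`-fold convolution power of a law `μ` on a finite group. -/
noncomputable def convolutionPower {G : Type*} [Group G] [Fintype G] [DecidableEq G]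
    (μ : G → ℝ) : ℕ → G → ℝ
  | 0 => fun g => if g = 1 then 1 else 0
  | (t + 1) => fun g => ∑ h : G, μ h * convolutionPower μ t (h⁻¹ * g)

/-- Total variation distance of a law `μ` on a finite group to the uniform law. -/
noncomputable def tvToUniform {G : Type*} [Fintype G] (μ : G → ℝ) : ℝ :=
  (1 / 2) * ∑ g : G, |μ g - 1 / (Fintype.card G : ℝ)|

/-- The mixing time of the Thorp shuffle of `n = 2k` cards. -/
noncomputable def mixingTime (k : ℕ) : ℕ :=
  sInf {t : ℕ | tvToUniform (convolutionPower (shuffleLaw k) t) ≤ 1 / 4}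

theorem pow_eq (k t : ℕ) :
    convolutionPower (shuffleLaw k) t = _root_.P162.convPow (_root_.P162.thorpLaw k) t := by
  induction t with
  | zero => rfl
  | succ t ih =>
    funext g
    simp only [convolutionPower, _root_.P162.convPow, _root_.P162.conv, ih]
    rfl

/-- The mixing time of the Thorp shuffle of `n = 2^d` cards is at most `7000 d²`: for every
`d ≥ 1` and every `t ≥ 7000 d²` the law after `t` shuffles is within `1/4` of uniform. -/
theorem result : ∀ d : ℕ, 1 ≤ d →
    (∀ t : ℕ, 7000 * d ^ 2 ≤ t →
      tvToUniform (convolutionPower (shuffleLaw (2 ^ (d - 1))) t) ≤ 1 / 4) ∧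
    mixingTime (2 ^ (d - 1)) ≤ 7000 * d ^ 2 := by
  intro d hd
  have key : ∀ t : ℕ, 7000 * d ^ 2 ≤ t →
      tvToUniform (convolutionPower (shuffleLaw (2 ^ (d - 1))) t) ≤ 1 / 4 := by
    intro t ht
    have h := _root_.P162.thorp_mix (d - 1) t (by rw [Nat.sub_add_cancel hd]; exact ht)
    rw [pow_eq]
    exact h
  exact ⟨key, Nat.sInf_le (key _ le_rfl)⟩

end Vale.Agent.Results.P162.ThorpDSquared
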