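import Mathlib
import Vale.Agent.P162.Log.Final
import Vale.Agent.P162.Log.ThetaAux

open Filter Asymptotics
open scoped Nat

namespace Vale.Agent.Results.P162.ThorpTheta

/-- One Thorp shuffle of a deck of `n = 2k` cards with coin flips `ω`, as a map of positions
(positions numbered `0, …, 2k-1`): for each `i < k` the cards in positions `i` (top half) and
`k + i` (bottom half) go to the positions `2i` and `2i + 1`; the coin `ω i` decides the order. -/
def shufflePos (k : ℕ) (ω : Fin k → Bool) (x : Fin (2 * k)) : Fin (2 * k) :=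
  if h : x.1 < k then
    ⟨2 * x.1 + (if ω ⟨x.1, h⟩ then 1 else 0), by split <;> omega⟩
  else
    ⟨2 * (x.1 - k) + (if ω ⟨x.1 - k, by omega⟩ then 0 else 1), by split <;> omega⟩

/-- The shuffle with coin flips `ω` as a permutation of positions. -/
noncomputable def shufflePerm (k : ℕ) (ω : Fin k → Bool) : Equiv.Perm (Fin (2 * k)) :=
  Equiv.ofBijective (shufflePos k ω)
    (Finite.injective_iff_bijective.mp (_root_.P162.thorpPos_injective k ω))

/-- The law `q_n`, `n = 2k`, of one shuffle: the coins are independent and fair. -/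
noncomputable def shuffleLaw (k : ℕ) : PMF (Equiv.Perm (Fin (2 * k))) :=
  (PMF.uniformOfFintype (Fin k → Bool)).map (shufflePerm k)

/-- The law of the deck after `t` independent shuffles. -/
noncomputable def deckLaw (k : ℕ) : ℕ → PMF (Equiv.Perm (Fin (2 * k)))
  | 0 => PMF.pure 1
  | (t + 1) => (shuffleLaw k).bind fun s => (deckLaw k t).map fun g => s * g

/-- The total variation distance of two laws on a finite type. -/
noncomputable def tv {α : Type} [Fintype α] (p q : PMF α) : ℝ :=
  (1 / 2) * ∑ a : α, |(p a).toReal - (q a).toReal|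

/-- The distance from uniform after `t` shuffles of `n = 2k` cards. -/
noncomputable def distUnif (k t : ℕ) : ℝ :=
  tv (deckLaw k t) (PMF.uniformOfFintype (Equiv.Perm (Fin (2 * k))))

/-- The mixing time of the Thorp shuffle of `n = 2k` cards at level `ε`. -/
noncomputable def mixingTime (k : ℕ) (ε : ℝ) : ℕ := sInf {t : ℕ | distUnif k t ≤ ε}

theorem shuffle_toReal (k : ℕ) (g : Equiv.Perm (Fin (2 * k))) :
    (shuffleLaw k g).toReal = _root_.P162.thorpLaw k g := by
  classical
  rw [shuffleLaw, PMF.map_apply, tsum_fintype, _root_.P162L.thorpLaw_eq]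
  simp only [PMF.uniformOfFintype_apply]
  rw [← Finset.sum_filter, Finset.sum_const, nsmul_eq_mul, ENNReal.toReal_mul,
    ENNReal.toReal_natCast, ENNReal.toReal_inv, ENNReal.toReal_natCast, Fintype.card_fun,
    Fintype.card_bool, Fintype.card_fin, Nat.cast_pow, Nat.cast_ofNat, div_eq_mul_inv]
  congr 3
  ext ω
  simp only [Finset.mem_filter, Finset.mem_univ, true_and]
  exact eq_comm

theorem deck_toReal (k t : ℕ) (g : Equiv.Perm (Fin (2 * k))) :
    (deckLaw k t g).toReal = _root_.P162.convPow (_root_.P162.thorpLaw k) t g := by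
  classical
  induction t generalizing g with
  | zero =>
    show ((PMF.pure 1 : PMF (Equiv.Perm (Fin (2 * k)))) g).toReal = if g = 1 then (1 : ℝ) else 0
    rw [PMF.pure_apply]
    split_ifs <;> simp
  | succ t ih =>
    show (((shuffleLaw k).bind fun s => (deckLaw k t).map fun g => s * g) g).toReal =
      ∑ h, _root_.P162.thorpLaw k h * _root_.P162.convPow (_root_.P162.thorpLaw k) t (h⁻¹ * g)
    rw [PMF.bind_apply, tsum_fintype, ENNReal.toReal_sum]
    · refine Finset.sum_congr rfl fun h _ => ?_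
      rw [ENNReal.toReal_mul, shuffle_toReal, ← ih]
      congr 2
      rw [PMF.map_apply, tsum_fintype, Finset.sum_eq_single (h⁻¹ * g)]
      · rw [if_pos (by rw [mul_inv_cancel_left])]
      · intro a _ ha
        rw [if_neg]
        intro hg
        exact ha (by rw [hg, inv_mul_cancel_left])
      · intro hcon
        exact absurd (Finset.mem_univ _) hcon
    · intro h _
      exact ENNReal.mul_ne_top (PMF.apply_ne_top _ _) (PMF.apply_ne_top _ _)

theorem distUnif_eq (k t : ℕ) :
    distUnif k t = _root_.P162.tvUnif (_root_.P162.convPow (_root_.P162.thorpLaw k) t) := by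
  unfold distUnif tv _root_.P162.tvUnif
  congr 1
  refine Finset.sum_congr rfl fun g _ => ?_
  rw [deck_toReal, PMF.uniformOfFintype_apply, ENNReal.toReal_inv, ENNReal.toReal_natCast, one_div]

/-- **The Thorp shuffle of `n = 2^d` cards: order of growth of the mixing time at every level, and
the rate of convergence.** -/
theorem result :
    (∀ ε : ℝ, 0 < ε → ε < 1 →
      (fun d : ℕ => (mixingTime (2 ^ (d - 1)) ε : ℝ)) =Θ[atTop]
        fun d : ℕ => Real.log ((2 : ℝ) ^ d)) ∧
    (∃ C : ℕ, ∀ d : ℕ, 1 ≤ d → ∀ j t : ℕ, C * d * j ≤ t →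
      distUnif (2 ^ (d - 1)) t ≤ (1 / 2) ^ j) ∧
    ∀ d t : ℕ, 1 ≤ d → t < d → 1 - 1 / (2 * ((2 ^ (d - 1))! : ℝ)) ≤ distUnif (2 ^ (d - 1)) t := by
  obtain ⟨C, hC⟩ := _root_.P162L.thorp_log
  have hup : ∀ d : ℕ, 1 ≤ d → ∀ j t : ℕ, C * d * j ≤ t →
      distUnif (2 ^ (d - 1)) t ≤ (1 / 2) ^ j := by
    intro d hd j t ht
    rw [distUnif_eq]
    refine _root_.P162L.tv_geom C hC (d - 1) j t ?_
    rw [Nat.sub_add_cancel hd]
    exact ht
  have hlow : ∀ d t : ℕ, 1 ≤ d → t < d →
      1 - 1 / (2 * ((2 ^ (d - 1))! : ℝ)) ≤ distUnif (2 ^ (d - 1)) t := by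
    intro d t hd ht
    rw [distUnif_eq]
    exact _root_.P162L.tv_low d t hd ht
  exact ⟨fun ε h0 h1 => _root_.P162L.theta_of (fun d t => distUnif (2 ^ (d - 1)) t) C hup hlow ε h0 h1,
    ⟨C, hup⟩, hlow⟩

end Vale.Agent.Results.P162.ThorpTheta
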